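import Vale.Agent.P317.Correct

namespace Vale.Agent.Results.P317.Fpras

open Vale.Agent.P328 hiding input
open Vale.Agent.P317

theorem result : ∃ (P : OProg) (bits time : Polynomial ℕ),
    ∀ (n : ℕ) (M₁ M₂ : Matroid (Fin n)), M₁.E = Set.univ → M₂.E = Set.univ → M₁.eRank = M₂.eRank →
    ∀ (ε δ : ℚ), 0 < ε → ε < 1 → 0 < δ → δ < 1 →
    ∀ (e k L N : ℕ), e = ⌈ε⁻¹⌉₊ → k = Nat.clog 2 ⌈δ⁻¹⌉₊ → L = n + e + k →
      N = {B : Set (Fin n) | M₁.IsBase B ∧ M₂.IsBase B}.ncard →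
      (∀ ω : Fin (bits.eval L) → Fin 2, (P.run (oracle M₁ M₂) (input n e k ω)).2 ≤ time.eval L) ∧
      (1 - δ : ℚ) ≤ ({ω : Fin (bits.eval L) → Fin 2 |
          (1 - ε) * N ≤ (P.run (oracle M₁ M₂) (input n e k ω)).1.toNat ∧
          ((P.run (oracle M₁ M₂) (input n e k ω)).1.toNat : ℚ) ≤ (1 + ε) * N}.ncard : ℚ) /
        2 ^ bits.eval L := by
  obtain ⟨P, hP, q, hq⟩ := ot_all
  obtain ⟨b, hb⟩ := ob_bits
  refine ⟨P, b.comp (2 * .X + 5), q.comp (2 * .X + 7 + 3 * b.comp (2 * .X + 5)),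
    fun n M₁ M₂ _ _ hr ε δ e0 _ d0 _ e k L N he hk hL hN => ?_⟩
  obtain ⟨x, hx⟩ : ∃ x : Inq, x = ⟨oracle M₁ M₂,
    (List.replicate n 0, List.replicate e 0, List.replicate k 0)⟩ := ⟨_, rfl⟩
  have s1 : sz x ≤ 2 * L + 5 := by
    change sz x.d ≤ _
    rw [hx, sz_pair, sz_pair, sz_rep, sz_rep, sz_rep]; omega
  generalize hl : (b.comp (2 * .X + 5)).eval L = l
  have e1 : ∀ ω : Fin l → Fin 2, input n e k ω = Enc.enc (x, List.ofFn fun i => (ω i : ℕ)) :=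
    fun ω => by rw [hx]; rfl
  have hO : x.O = oracle M₁ M₂ := by rw [hx]
  have xe : x.e = e := by simp [hx, Inq.e]
  have xk : x.k = k := by simp [hx, Inq.k]
  obtain rfl : x.n = n := by simp [hx, Inq.n]
  have e2 : ∀ a : List ℕ, oracle M₁ M₂ = Oc.orc (x, a) := fun _ => hO.symm
  have e3 : 0 < e := he ▸ Nat.ceil_pos.2 (by positivity)
  have := Inq.law hO hr (xe ▸ e3) (l := l)
    ((hb x).trans ((eval_mono b s1).trans_eq (by simp [← hl, Polynomial.eval_comp])))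
  rw [xe, xk, ← hN] at this
  refine ⟨fun ω => ?_, ?_⟩
  · rw [e1, e2 (List.ofFn fun i => (ω i : ℕ)), Polynomial.eval_comp]
    refine (hq _).trans (eval_mono q ?_)
    have a : ∑ i, Nat.size (ω i) ≤ ∑ _i : Fin l, 1 :=
      Finset.sum_le_sum fun i _ => Nat.size_le.2 (ω i).2
    rw [sz_pair, sz_ofFn]
    simp only [Polynomial.eval_add, Polynomial.eval_mul, hl, Polynomial.eval_X, Polynomial.eval_ofNat]
    simp only [Finset.sum_const, Finset.card_univ, Fintype.card_fin, smul_eq_mul] at a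
    omega
  have c1 : (1 / 2 : ℝ) ^ k ≤ δ := by
    have : ((δ⁻¹ : ℚ) : ℝ) ≤ (2 ^ k : ℕ) := by
      exact_mod_cast (Nat.le_ceil δ⁻¹).trans (Nat.cast_le.2 (hk ▸ Nat.le_pow_clog one_lt_two _))
    push_cast at this
    rw [one_div, inv_pow]
    exact inv_le_of_inv_le₀ (by exact_mod_cast d0) this
  have c2 : (N / e : ℝ) ≤ ε * N := by
    have : ((ε⁻¹ : ℚ) : ℝ) ≤ e := by exact_mod_cast he ▸ Nat.le_ceil ε⁻¹
    push_cast at this
    rw [div_eq_inv_mul]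
    exact mul_le_mul_of_nonneg_right (inv_le_of_inv_le₀ (by exact_mod_cast e0) this) (by positivity)
  rw [← Rat.cast_le (K := ℝ)]
  push_cast
  refine le_trans (by linarith) (this.trans (div_le_div_of_nonneg_right (Nat.cast_le.2
    (Set.ncard_le_ncard (fun ω h => ?_) (Set.toFinite _))) (by positivity)))
  rw [Set.mem_ofPred_eq, abs_le] at h
  rw [Set.mem_ofPred_eq, e1, e2 (List.ofFn fun i => (ω i : ℕ)), hP, ← Rat.cast_le (K := ℝ),
    ← Rat.cast_le (K := ℝ)]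
  push_cast
  simp only [toNum_eq, enc_nat, Val.toNat]
  constructor <;> linarith [h.1, h.2]

end Vale.Agent.Results.P317.Fpras
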